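import Vale.Agent.P243.Sum

open Vale.Agent.P243

theorem Vale.Agent.Results.P243.RelAreaBelowHalf.result :
    ∃ (K : Set E3) (m : ℕ) (u : Fin m → E3) (B : (i : Fin m) → Set (Perp (u i))),
      IsConvexBody K ∧
      (∀ i, ‖u i‖ = 1 ∧ IsBase (u i) (B i) ∧ 0 < (area (u i) (shadow (u i) K)).toReal) ∧
      K ⊆ ⋃ i, cylinder (u i) (B i) ∧
      ∑ i, (area (u i) (B i)).toReal / (area (u i) (shadow (u i) K)).toReal < 249 / 500 := by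
  obtain ⟨m, u, B, h1, h2, h3, h4, h5, h6⟩ := main_fin
  refine ⟨Kset, m, u, B, ⟨Kset_convex, Kset_compact, Kset_interior⟩,
    fun i => ⟨h1 i, ⟨h2 i, h3 i⟩, h4 i⟩, ?_, h6⟩
  intro x hx
  obtain ⟨i, hi⟩ := h5 x hx
  exact Set.mem_iUnion.2 ⟨i, hi⟩
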