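import Vale.Agent.Results.P243.RelAreaBelowHalf

open Vale.Agent.P243

/-- The stronger form of the half-area question is false: it is not true that every finite
covering of a convex body in Euclidean three-space by cylinders has directionwise relative
area at least one half. -/
theorem Vale.Agent.Results.P243.S_BezdekKhanFalse.result :
    ¬ ∀ (K : Set E3) (m : ℕ) (u : Fin m → E3) (B : (i : Fin m) → Set (Perp (u i))),
      IsConvexBody K →
      (∀ i, ‖u i‖ = 1 ∧ IsBase (u i) (B i)) →
      K ⊆ ⋃ i, cylinder (u i) (B i) →
      (1 : ℝ) / 2 ≤ ∑ i, (area (u i) (B i)).toReal / (area (u i) (shadow (u i) K)).toReal := by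
  intro h
  obtain ⟨K, m, u, B, hK, hu, hcov, hlt⟩ := Vale.Agent.Results.P243.RelAreaBelowHalf.result
  have := h K m u B hK (fun i => ⟨(hu i).1, (hu i).2.1⟩) hcov
  linarith
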