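import Vale.Agent.Results.P243.RelAreaBelowHalf

open Vale.Agent.P243

/-- The explicit tetrahedron with vertices `(2,0,1)`, `(-2,0,1)`, `(0,2,-1)`, `(0,-2,-1)`, written
by its four facet inequalities, is a convex body and admits a finite covering by cylinders whose
directionwise relative area is below `249/500`. -/
theorem Vale.Agent.Results.P243.T_ExplicitTetrahedron.result :
    IsConvexBody {x : E3 | |x 0| ≤ 1 + x 2 ∧ |x 1| ≤ 1 - x 2} ∧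
    ∃ (m : ℕ) (u : Fin m → E3) (B : (i : Fin m) → Set (Perp (u i))),
      (∀ i, ‖u i‖ = 1 ∧ IsBase (u i) (B i) ∧
        0 < (area (u i) (shadow (u i) {x : E3 | |x 0| ≤ 1 + x 2 ∧ |x 1| ≤ 1 - x 2})).toReal) ∧
      {x : E3 | |x 0| ≤ 1 + x 2 ∧ |x 1| ≤ 1 - x 2} ⊆ ⋃ i, cylinder (u i) (B i) ∧
      ∑ i, (area (u i) (B i)).toReal /
        (area (u i) (shadow (u i) {x : E3 | |x 0| ≤ 1 + x 2 ∧ |x 1| ≤ 1 - x 2})).toReal
          < 249 / 500 := by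
  obtain ⟨m, u, B, h1, h2, h3, h4, h5, h6⟩ := main_fin
  refine ⟨⟨Kset_convex, Kset_compact, Kset_interior⟩, m, u, B,
    fun i => ⟨h1 i, ⟨h2 i, h3 i⟩, h4 i⟩, ?_, h6⟩
  intro x hx
  obtain ⟨i, hi⟩ := h5 x hx
  exact Set.mem_iUnion.2 ⟨i, hi⟩
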