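import Vale.Agent.Results.P243.RelAreaBelowHalf

open Vale.Agent.P243

/-- The constant `r_3` of the problem, written as the infimum of the directionwise relative areas
of all finite cylinder coverings of all convex bodies, is at most `249/500`, hence below `1/2`.
The set of values is nonempty and bounded below by `0`, so the infimum is an honest one. -/
theorem Vale.Agent.Results.P243.U_InfimumBelowHalf.result :
    ({r : ℝ | ∃ (K : Set E3) (m : ℕ) (u : Fin m → E3) (B : (i : Fin m) → Set (Perp (u i))),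
        IsConvexBody K ∧ (∀ i, ‖u i‖ = 1 ∧ IsBase (u i) (B i)) ∧
        K ⊆ ⋃ i, cylinder (u i) (B i) ∧
        r = ∑ i, (area (u i) (B i)).toReal / (area (u i) (shadow (u i) K)).toReal}).Nonempty ∧
    (∀ r ∈ {r : ℝ | ∃ (K : Set E3) (m : ℕ) (u : Fin m → E3)
        (B : (i : Fin m) → Set (Perp (u i))),
        IsConvexBody K ∧ (∀ i, ‖u i‖ = 1 ∧ IsBase (u i) (B i)) ∧
        K ⊆ ⋃ i, cylinder (u i) (B i) ∧
        r = ∑ i, (area (u i) (B i)).toReal / (area (u i) (shadow (u i) K)).toReal}, 0 ≤ r) ∧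
    sInf {r : ℝ | ∃ (K : Set E3) (m : ℕ) (u : Fin m → E3) (B : (i : Fin m) → Set (Perp (u i))),
        IsConvexBody K ∧ (∀ i, ‖u i‖ = 1 ∧ IsBase (u i) (B i)) ∧
        K ⊆ ⋃ i, cylinder (u i) (B i) ∧
        r = ∑ i, (area (u i) (B i)).toReal / (area (u i) (shadow (u i) K)).toReal}
      ≤ 249 / 500 := by
  obtain ⟨K, m, u, B, hK, hu, hcov, hlt⟩ := Vale.Agent.Results.P243.RelAreaBelowHalf.result
  have hmem : (∑ i, (area (u i) (B i)).toReal / (area (u i) (shadow (u i) K)).toReal) ∈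
      {r : ℝ | ∃ (K : Set E3) (m : ℕ) (u : Fin m → E3) (B : (i : Fin m) → Set (Perp (u i))),
        IsConvexBody K ∧ (∀ i, ‖u i‖ = 1 ∧ IsBase (u i) (B i)) ∧
        K ⊆ ⋃ i, cylinder (u i) (B i) ∧
        r = ∑ i, (area (u i) (B i)).toReal / (area (u i) (shadow (u i) K)).toReal} :=
    ⟨K, m, u, B, hK, fun i => ⟨(hu i).1, (hu i).2.1⟩, hcov, rfl⟩
  have hnn : ∀ r ∈ {r : ℝ | ∃ (K : Set E3) (m : ℕ) (u : Fin m → E3)
        (B : (i : Fin m) → Set (Perp (u i))),
        IsConvexBody K ∧ (∀ i, ‖u i‖ = 1 ∧ IsBase (u i) (B i)) ∧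
        K ⊆ ⋃ i, cylinder (u i) (B i) ∧
        r = ∑ i, (area (u i) (B i)).toReal / (area (u i) (shadow (u i) K)).toReal}, 0 ≤ r := by
    rintro r ⟨K, m, u, B, -, -, -, rfl⟩
    exact Finset.sum_nonneg fun i _ => div_nonneg ENNReal.toReal_nonneg ENNReal.toReal_nonneg
  refine ⟨⟨_, hmem⟩, hnn, ?_⟩
  exact (csInf_le ⟨0, fun r hr => hnn r hr⟩ hmem).trans hlt.le
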